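import Mathlib

namespace Vale.Agent.P068

open scoped Matroid

/-- The family `M` of matroids has a packing/covering partition of the set `E`. -/
def HasPackingCovering {α Θ : Type*} (E : Set α) (M : Θ → Matroid α) : Prop :=
  ∃ (P C : Set α) (S I : Θ → Set α), Disjoint P C ∧ P ∪ C = E ∧
    (∀ i, S i ⊆ P) ∧ (∀ i, I i ⊆ C) ∧ (∀ i j, i ≠ j → Disjoint (S i) (S j)) ∧
    (∀ i, (M i ↾ P).closure (S i) = P) ∧ (∀ i, ((M i)✶ ↾ C)✶.Indep (I i)) ∧ ⋃ i, I i = C

/-- The pair `(M, N)` of matroids on `E` satisfies intersection. -/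
def SatisfiesIntersection {α : Type*} (E : Set α) (M N : Matroid α) : Prop :=
  ∃ J JM JN : Set α, M.Indep J ∧ N.Indep J ∧ Disjoint JM JN ∧ JM ∪ JN = J ∧
    M.closure JM ∪ N.closure JN = E

/-- Every subset of the ground set is independent or spanning. -/
def IsUniform {α : Type*} (M : Matroid α) : Prop := ∀ X ⊆ M.E, M.Indep X ∨ M.Spanning X

/-- `M` is the direct sum of its restrictions to the classes of a partition of the ground set,
and each of these restrictions is uniform. -/
def IsPartitional {α : Type} (M : Matroid α) : Prop :=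
  ∃ (V : Type) (p : α → V), (∀ X ⊆ M.E, M.Indep X ↔ ∀ v, M.Indep (X ∩ p ⁻¹' {v})) ∧
    ∀ v, IsUniform (M ↾ (M.E ∩ p ⁻¹' {v}))

end Vale.Agent.P068
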