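import Vale.Agent.P068.Mat

namespace Vale.Agent.P068

open Filter Set
open scoped Matroid

/-- The edge class at a vertex of the double ray: inner for `false`, outer for `true`. -/
def cls : Bool × ℕ → Bool → Option (Bool × ℕ)
  | v, true => some v
  | (_, 0), false => none
  | (s, k + 1), false => some (s, k)

/-- The colour of a vertex. -/
def col (v : Bool × ℕ) : Bool := xor v.1 v.2.bodd

/-- The edges at a vertex. -/
def emb (v : Bool × ℕ) (x : Ed) : Option (Bool × ℕ) × Pt := (cls v x.1, x.2)

lemma emb_bij (i : Bool) :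
    Function.Bijective fun z : {v // col v = i} × Ed => emb z.1.1 z.2 := by
  constructor
  · rintro ⟨⟨⟨s, k⟩, h⟩, t, p⟩ ⟨⟨⟨s', k'⟩, h'⟩, t', p'⟩ e
    simp only [emb, Prod.mk.injEq] at e
    obtain ⟨e, rfl⟩ := e
    have h2 := h.trans h'.symm
    suffices s = s' ∧ k = k' ∧ t = t' by
      obtain ⟨rfl, rfl, rfl⟩ := this; rfl
    clear h h'
    rcases k with _ | k <;> rcases k' with _ | k' <;> cases t <;> cases t' <;>
      simp only [cls, Option.some.injEq, Prod.mk.injEq, reduceCtorEq] at e
    · simpa [col] using h2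
    all_goals
      obtain ⟨rfl, e⟩ := e
      first
        | (cases e; simp; done)
        | (cases e; simp [col] at h2)
        | cases e
  · rintro ⟨_ | ⟨s, k⟩, p⟩
    · exact ⟨(⟨(i, 0), by simp [col]⟩, false, p), rfl⟩
    · by_cases h : col (s, k) = i
      · exact ⟨(⟨(s, k), h⟩, true, p), rfl⟩
      · refine ⟨(⟨(s, k + 1), ?_⟩, false, p), rfl⟩
        simp only [col, Nat.bodd_succ] at h ⊢
        revert h; cases s <;> cases k.bodd <;> cases i <;> simp

lemma exists_tau : Nonempty (Option (Bool × ℕ) × Pt ≃ ℕ) := by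
  have : Infinite Pt := Infinite.of_surjective (fun x : Pt => x.1) fun n => ⟨⟨n, fun _ => true⟩, rfl⟩
  exact nonempty_equiv_of_countable

/-- An enumeration of all edges. -/
noncomputable def tau : Option (Bool × ℕ) × Pt ≃ ℕ := Classical.choice exists_tau

/-- The edges, grouped by their end of colour `i`. -/
noncomputable def eqv (i : Bool) : {v // col v = i} × Ed ≃ ℕ :=
  (Equiv.ofBijective _ (emb_bij i)).trans tau

/-- The two matroids. -/
noncomputable def MM (i : Bool) : Matroid ℕ := pm (eqv i)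

lemma wave (P : Set ℕ) (S : Bool → Set ℕ) (hS : ∀ i, S i ⊆ P) (hd : Disjoint (S false) (S true))
    (h : ∀ i v a, eqv i (v, a) ∈ P → eqv i (v, a) ∉ S i → Ind (sec (eqv i) (S i) v)ᶜ) : P = ∅ := by
  let B : Bool × ℕ → Set Ed := fun v => {a | tau (emb v a) ∈ S (col v)}
  have hd' : ∀ i j y, i ≠ j → y ∈ S i → y ∉ S j := by
    intro i j y hij h1 h2
    cases i <;> cases j
    · exact hij rfl
    · exact disjoint_left.1 hd h1 h2
    · exact disjoint_left.1 hd h2 h1
    · exact hij rfl
  have key : ∀ v w t t', col v ≠ col w → cls v t = cls w t' → part t (B v) ∈ UF →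
      Ind (B w)ᶜ ∧ Disjoint (part t' (B w)) (part t (B v)) := by
    intro v w t t' hc he hU
    have e : ∀ p, emb v (t, p) = emb w (t', p) := fun p => by simp [emb, he]
    obtain ⟨p, hp⟩ := Ultrafilter.nonempty_of_mem hU
    refine ⟨h (col w) ⟨w, rfl⟩ (t', p) (hS (col v) ?_) (hd' _ _ _ hc ?_),
      disjoint_left.2 fun q h1 h2 => hd' _ _ _ hc h2 ?_⟩
    · change tau (emb w (t', p)) ∈ _
      rw [← e]; exact hp
    · change tau (emb w (t', p)) ∈ _
      rw [← e]; exact hp
    · rw [e]; exact h1
  have hcol : ∀ s k, col (s, k) ≠ col (s, k + 1) := by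
    intro s k; simp [col]
  have h1 : ∀ θ v, Rk (B v) θ → part true (B v) ∉ UF := by
    intro θ
    induction θ using WellFoundedLT.induction with
    | ind θ ih =>
      rintro ⟨s, k⟩ hr hU
      obtain ⟨k1, k2⟩ := key (s, k) (s, k + 1) true false (hcol s k) rfl hU
      have k3 : part false (B (s, k + 1)) ∉ UF := fun h' => by
        obtain ⟨p, hp⟩ := Ultrafilter.nonempty_of_mem (inter_mem h' hU)
        exact disjoint_left.1 k2 hp.1 hp.2
      obtain ⟨k4, θ', k5⟩ := exists_rk k1 k3
      exact ih θ' (rk_lt k5 hr k2) _ k5 k4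
  have h2 : ∀ v, Ind (B v)ᶜ → part false (B v) ∈ UF := by
    intro v hv
    by_contra hc
    obtain ⟨k4, θ, k5⟩ := exists_rk hv hc
    exact h1 θ v k5 k4
  have h3 : ∀ k s, ¬ Ind (B (s, k))ᶜ := by
    intro k
    induction k with
    | zero =>
      intro s hs
      obtain ⟨k1, k2⟩ := key (s, 0) (!s, 0) false false (by simp [col]) rfl (h2 _ hs)
      obtain ⟨p, hp⟩ := Ultrafilter.nonempty_of_mem (inter_mem (h2 _ k1) (h2 _ hs))
      exact disjoint_left.1 k2 hp.1 hp.2
    | succ k ih =>
      intro s hs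
      exact ih s (key (s, k + 1) (s, k) false true (hcol s k).symm rfl (h2 _ hs)).1
  refine eq_empty_of_forall_notMem fun y hy => ?_
  obtain ⟨i, hi⟩ : ∃ i, y ∉ S i := by
    by_contra hc
    push Not at hc
    exact disjoint_left.1 hd (hc false) (hc true)
  obtain ⟨⟨⟨⟨s, k⟩, rfl⟩, a⟩, rfl⟩ := (eqv i).surjective y
  exact h3 k s (h _ _ a hy hi)

lemma wave' (P : Set ℕ) (S : Bool → Set ℕ) (hS : ∀ i, S i ⊆ P) (hd : Disjoint (S false) (S true))
    (h : ∀ i, P ⊆ (MM i).closure (S i)) : P = ∅ :=
  wave P S hS hd fun i _ _ h1 h2 => mem_closure (eqv i) (h i h1) h2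

theorem no_pc : ¬ HasPackingCovering univ MM := by
  rintro ⟨P, C, S, I, -, hPC, hS, hI, hd, hcl, hind, hcov⟩
  have hP : P = ∅ := wave' P S hS (hd _ _ (by simp)) fun i => by
    have := hcl i
    rw [Matroid.restrict_closure_eq _ (hS i) (subset_univ _)] at this
    exact inter_eq_right.1 this
  have hC : C = ∅ := wave' C (fun i => C \ I i) (fun _ => sdiff_subset) (by
    refine disjoint_left.2 fun y h1 h2 => ?_
    obtain ⟨i, hi⟩ := mem_iUnion.1 (hcov.ge h1.1)
    cases i
    · exact h1.2 hi
    · exact h2.2 hi) fun i => by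
    have h1 : ((MM i)✶ ↾ C).Coindep (I i) := hind i
    rw [Matroid.coindep_iff_compl_spanning (hI i), Matroid.restrict_ground_eq,
      Matroid.restrict_spanning_iff sdiff_subset (subset_univ _), MM, pm_dual] at h1
    exact h1
  rw [hP, hC, union_empty] at hPC
  exact empty_ne_univ hPC

lemma closure_empty_of {J : Set ℕ} (T : Bool → Set ℕ) (hJ : ∀ i, (MM i).Indep J)
    (hT : ∀ i, T i ⊆ J) (hd : ∀ i, Disjoint (T i) (T (!i)))
    (hcl : ∀ i y, y ∈ (MM i).closure (T i) ∨ y ∈ (MM (!i)).closure (T (!i))) (i : Bool) :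
    (MM i).closure (T i) = ∅ := by
  classical
  have hsub : T i ⊆ (MM i).closure (T i) := (MM i).subset_closure _ (subset_univ _)
  refine wave _ (fun j => if j = i then T i else (MM i).closure (T i) \ T i) (fun j => ?_) ?_ ?_
  · split_ifs
    · exact hsub
    · exact sdiff_subset
  · cases i <;> simp [disjoint_sdiff_left, disjoint_sdiff_right]
  · intro j v a h1 h2
    by_cases hj : j = i
    · subst hj
      simp only [if_true] at h2 ⊢
      exact mem_closure (eqv j) h1 h2
    simp only [if_neg hj] at h2 ⊢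
    obtain rfl : j = !i := by revert hj; cases i <;> cases j <;> simp
    have h3 : eqv (!i) (v, a) ∈ T i := by
      by_contra h; exact h2 ⟨h1, h⟩
    have h4 : ¬ Ind (sec (eqv (!i)) (T (!i)) v)ᶜ := fun h => by
      have := ind_anti (hJ (!i) v) h (sec_mono _ (hT _) v)
      exact disjoint_left.1 (hd i) h3 (this.ge (hT i h3))
    refine (hJ (!i) v).mono fun b hb => ?_
    by_contra hb'
    refine hb ⟨(hcl i _).resolve_right fun h => h4 (mem_closure _ h fun h => hb' (hT _ h)),
      fun h => hb' (hT _ h)⟩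

theorem no_inter : ¬ SatisfiesIntersection univ (MM false) (MM true) := by
  rintro ⟨J, JM, JN, h1, h2, hd, hJ, hcl⟩
  have := closure_empty_of (J := J) (fun i => cond i JN JM) (fun i => by cases i <;> assumption)
    (fun i => by cases i <;> simp [← hJ]) (fun i => by
      cases i
      · exact hd
      · exact hd.symm) (fun i y => by
      have := hcl.ge (mem_univ y)
      cases i
      · exact this
      · exact this.symm)
  rw [show (MM false).closure JM = ∅ from this false, show (MM true).closure JN = ∅ from this true,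
    union_empty] at hcl
  exact empty_ne_univ hcl

end Vale.Agent.P068
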