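import Vale.Agent.P068.Null

namespace Vale.Agent.P068

open Filter Set

/-- The edges at a vertex: an inner and an outer copy of the point set. -/
abbrev Ed := Bool × Pt

/-- Edges of small level. -/
def low (n : ℕ) : Set Ed := {x | x.2.1 < n}

lemma low_finite (n : ℕ) : (low n).Finite := by
  have : low n ⊆ ⋃ m ∈ Iio n, range fun y : Bool × Om m => ((y.1, ⟨m, y.2⟩) : Ed) := by
    rintro ⟨s, m, ω⟩ hx
    exact mem_biUnion (show m ∈ Iio n from hx) ⟨(s, ω), rfl⟩
  exact ((finite_Iio n).biUnion fun m _ => finite_range _).subset this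

lemma eventually_subset_low {F : Set Ed} (hF : F.Finite) : ∀ᶠ n in atTop, F ⊆ low n := by
  simp only [subset_def]
  rw [eventually_all_finite hF]
  intro x _
  exact eventually_gt_atTop x.2.1

/-- The counting function. -/
noncomputable def cnt (B : Set Ed) (n : ℕ) : ℕ∞ := (B ∩ low n).encard

lemma cnt_mono {B C : Set Ed} (h : B ⊆ C) (n : ℕ) : cnt B n ≤ cnt C n :=
  encard_le_encard (inter_subset_inter_left _ h)

lemma cnt_ne_top (B : Set Ed) (n : ℕ) : cnt B n ≠ ⊤ :=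
  ((low_finite n).inter_of_right B).encard_lt_top.ne

lemma cnt_insert_le (x : Ed) (B : Set Ed) (n : ℕ) : cnt (insert x B) n ≤ cnt B n + 1 :=
  (encard_le_encard (by intro y; simp; tauto)).trans (encard_insert_le _ x)

lemma cnt_union {B F : Set Ed} (hF : F.Finite) (hd : Disjoint B F) :
    ∀ᶠ n in atTop, cnt (B ∪ F) n = cnt B n + F.encard := by
  filter_upwards [eventually_subset_low hF] with n hn
  rw [cnt, union_inter_distrib_right, inter_eq_left.2 hn,
    encard_union_eq (hd.mono_left inter_subset_left), cnt]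

/-- Eventually below the threshold. -/
def LeG (G : ℕ → ℕ∞) (B : Set Ed) : Prop := ∀ᶠ n in atTop, cnt B n ≤ G n

/-- Frequently above the threshold. -/
def GeG (G : ℕ → ℕ∞) (B : Set Ed) : Prop := ∃ᶠ n in atTop, G n ≤ cnt B n

lemma LeG.mono {G G' : ℕ → ℕ∞} {B B' : Set Ed} (h : LeG G B) (hB : B' ⊆ B) (hG : G ≤ G') :
    LeG G' B' := Eventually.mono h fun n hn => (cnt_mono hB n).trans (hn.trans (hG n))

lemma GeG.mono {G G' : ℕ → ℕ∞} {B B' : Set Ed} (h : GeG G B) (hB : B ⊆ B') (hG : G' ≤ G) :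
    GeG G' B' := Frequently.mono h fun n hn => (hG n).trans (hn.trans (cnt_mono hB n))

lemma GeG.ne_top {G : ℕ → ℕ∞} {B : Set Ed} (h : GeG G B) : G ≠ ⊤ := by
  rintro rfl
  obtain ⟨n, hn⟩ := Frequently.exists h
  exact cnt_ne_top B n (top_le_iff.1 hn)

lemma leG_or_geG (G : ℕ → ℕ∞) (B : Set Ed) : LeG G B ∨ GeG G B := by
  by_cases h : LeG G B
  · exact Or.inl h
  · exact Or.inr ((not_eventually.1 h).mono fun n hn => (not_le.1 hn).le)

lemma eq_of_leG_geG {G G' : ℕ → ℕ∞} {X Y : Set Ed} (hX : LeG G X) (hY : GeG G' Y) (h : Y ⊆ X)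
    (hG : G ≤ G') : Y = X := by
  by_contra hne
  obtain ⟨x, hx, hx'⟩ := exists_of_ssubset (h.ssubset_of_ne hne)
  obtain ⟨n, h1, h2, h3⟩ := (Frequently.and_eventually hY (Eventually.and hX
    (cnt_union (finite_singleton x) (disjoint_singleton_right.2 hx')))).exists
  have h4 := cnt_mono (show Y ∪ {x} ⊆ X by simp [insert_subset_iff, hx, h]) n
  rw [h3, encard_singleton] at h4
  have := (h4.trans (h2.trans (hG n))).trans h1
  exact absurd this (not_le.2 (ENat.lt_add_one_iff (cnt_ne_top Y n) |>.2 le_rfl))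

lemma geG_of_insert {G : ℕ → ℕ∞} {x : Ed} {a : Set Ed} (h : ¬ LeG G (insert x a)) : GeG G a :=
  (not_eventually.1 h).mono fun n hn =>
    (ENat.lt_add_one_iff (cnt_ne_top a n)).1 ((not_le.1 hn).trans_le (cnt_insert_le x a n))

lemma ivp_fin {G : ℕ → ℕ∞} {F : Set Ed} (hF : F.Finite) : ∀ a : Set Ed, LeG G a → GeG G (a ∪ F) →
    ∃ c, a ⊆ c ∧ c ⊆ a ∪ F ∧ LeG G c ∧ GeG G c := by
  induction F, hF using Set.Finite.induction_on with
  | empty => exact fun a h1 h2 => ⟨a, subset_rfl, subset_union_left, h1, by simpa using h2⟩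
  | @insert x F _ _ ih =>
    intro a h1 h2
    by_cases h : LeG G (insert x a)
    · obtain ⟨c, c1, c2, c3⟩ := ih _ h (by simpa [insert_union] using h2)
      exact ⟨c, (subset_insert _ _).trans c1, by simpa [insert_union] using c2, c3⟩
    · exact ⟨a, subset_rfl, subset_union_left, h1, geG_of_insert h⟩

lemma ivp {G : ℕ → ℕ∞} {a b : Set Ed} (hab : a ⊆ b) (ha : LeG G a) (hb : GeG G b) :
    ∃ c, a ⊆ c ∧ c ⊆ b ∧ LeG G c ∧ GeG G c := by
  obtain ⟨n0, hn0⟩ := eventually_atTop.1 ha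
  obtain ⟨c, hac, hc⟩ := zorn_subset_nonempty {c | c ⊆ b ∧ ∀ n ≥ n0, cnt c n ≤ G n}
    (fun C hC hch hne => ⟨⋃₀ C, ⟨sUnion_subset fun t ht => (hC ht).1, fun n hn => by
      obtain ⟨t, ht, h⟩ := hch.directedOn.exists_mem_subset_of_finite_of_subset_sUnion hne
        ((low_finite n).inter_of_right (⋃₀ C)) inter_subset_left
      exact le_trans (encard_le_encard (subset_inter h inter_subset_right)) ((hC ht).2 n hn)⟩,
      fun s hs => subset_sUnion_of_mem hs⟩) a ⟨hab, hn0⟩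
  have hle : LeG G c := eventually_atTop.2 ⟨n0, hc.1.2⟩
  by_cases hfin : (b \ c).Finite
  · obtain ⟨d, d1, d2, d3⟩ := ivp_fin hfin c hle (hb.mono (by simp) le_rfl)
    exact ⟨d, hac.trans d1, d2.trans (union_subset hc.1.1 sdiff_subset), d3⟩
  refine ⟨c, hac, hc.1.1, hle, frequently_atTop.2 fun N => ?_⟩
  obtain ⟨x, hx, hxN⟩ := (Set.Infinite.sdiff hfin (low_finite N)).nonempty
  by_contra hcon
  push Not at hcon
  have : insert x c ⊆ b ∧ ∀ n ≥ n0, cnt (insert x c) n ≤ G n := by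
    refine ⟨insert_subset hx.1 hc.1.1, fun n hn => ?_⟩
    by_cases hxn : x ∈ low n
    · have hN : N ≤ n := by
        simp only [low, mem_ofPred_eq] at hxn hxN; omega
      exact (cnt_insert_le x c n).trans (Order.add_one_le_of_lt (hcon n hN))
    · rw [cnt, insert_inter_of_notMem hxn]; exact hc.1.2 n hn
  exact hx.2 (hc.2 this (subset_insert _ _) (mem_insert _ _))

lemma ivp_near {G : ℕ → ℕ∞} {a x b : Set Ed} (hax : a ⊆ x) (hxb : x ⊆ b) (k l : ℕ)
    (h1 : ∀ᶠ n in atTop, cnt x n ≤ G n + k) (h2 : ∃ᶠ n in atTop, G n ≤ cnt x n + l)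
    (ha : (x \ a).Finite → LeG G a) (hb : (b \ x).Finite → GeG G b) :
    ∃ c, a ⊆ c ∧ c ⊆ b ∧ (x \ c).Finite ∧ (c \ x).Finite ∧ LeG G c ∧ GeG G c := by
  obtain ⟨u, u1, u2, u3, u4⟩ : ∃ u, a ⊆ u ∧ u ⊆ x ∧ (x \ u).Finite ∧ LeG G u := by
    by_cases h : (x \ a).Finite
    · exact ⟨a, subset_rfl, hax, h, ha h⟩
    · obtain ⟨F, hF, hk⟩ := exists_subset_encard_eq (s := x \ a) (k := k)
        (by rw [Set.Infinite.encard_eq h]; exact le_top)
      have hFf : F.Finite := finite_of_encard_eq_coe hk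
      refine ⟨x \ F, subset_sdiff.2 ⟨hax, disjoint_left.2 fun y hy hy' => (hF hy').2 hy⟩,
        sdiff_subset, hFf.subset (by intro y; simp), ?_⟩
      filter_upwards [h1, cnt_union (B := x \ F) hFf disjoint_sdiff_left] with n e1 e2
      rw [sdiff_union_of_subset (hF.trans sdiff_subset), hk] at e2
      rw [e2] at e1
      exact (ENat.add_le_add_iff_right (ENat.natCast_ne_top k)).1 e1
  obtain ⟨v, v1, v2, v3, v4⟩ : ∃ v, x ⊆ v ∧ v ⊆ b ∧ (v \ x).Finite ∧ GeG G v := by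
    by_cases h : (b \ x).Finite
    · exact ⟨b, hxb, subset_rfl, h, hb h⟩
    · obtain ⟨F, hF, hk⟩ := exists_subset_encard_eq (s := b \ x) (k := l)
        (by rw [Set.Infinite.encard_eq h]; exact le_top)
      have hFf : F.Finite := finite_of_encard_eq_coe hk
      refine ⟨x ∪ F, subset_union_left, union_subset hxb (hF.trans sdiff_subset),
        hFf.subset (by intro y; simp; tauto), ?_⟩
      refine (h2.and_eventually (cnt_union (B := x) hFf
        (disjoint_left.2 fun y hy hy' => (hF hy').2 hy))).mono fun n hn => ?_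
      rw [hn.2, hk]; exact hn.1
  obtain ⟨c, c1, c2, c3⟩ := ivp (u2.trans v1) u4 v4
  exact ⟨c, u1.trans c1, c2.trans v2, u3.subset (sdiff_subset_sdiff_right c1),
    v3.subset (sdiff_subset_sdiff_left c2), c3⟩

lemma window {G : ℕ → ℕ∞} {b : Set Ed} (h : ∀ k : ℕ, ∃ᶠ n in atTop, G n + k ≤ cnt b n) :
    ∃ Z ⊆ b, ∃ S : Set ℕ, S ∉ hyperfilter ℕ ∧ (∀ x ∈ Z, x.2.1 ∈ S) ∧ GeG G Z := by
  have h' : ∀ m : ℕ, ∃ n, m < n ∧ G n + (low m).encard ≤ cnt b n := by
    intro m
    obtain ⟨n, h1, h2⟩ := ((h (low m).ncard).and_eventually (eventually_gt_atTop m)).exists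
    exact ⟨n, h2, by rwa [(low_finite m).cast_ncard_eq] at h1⟩
  choose φ hφ1 hφ2 using h'
  let u : ℕ → ℕ := fun j => φ^[j] 0
  have hu : ∀ j, u (j + 1) = φ (u j) := fun j => Function.iterate_succ_apply' _ _ _
  have hm : StrictMono u := strictMono_nat_of_lt_succ fun j => by rw [hu]; exact hφ1 _
  let S : ℕ → Set ℕ := fun t => ⋃ j, Ico (u (2 * j + t)) (u (2 * j + t + 1))
  obtain ⟨t, ht⟩ : ∃ t, S t ∉ hyperfilter ℕ := by
    by_contra hcon
    push Not at hcon
    obtain ⟨m, h0, h1⟩ := Ultrafilter.nonempty_of_mem (inter_mem (hcon 0) (hcon 1))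
    obtain ⟨i, hi⟩ := mem_iUnion.1 h0
    obtain ⟨j, hj⟩ := mem_iUnion.1 h1
    have e1 := hm.lt_iff_lt.1 (hi.1.trans_lt hj.2)
    have e2 := hm.lt_iff_lt.1 (hj.1.trans_lt hi.2)
    omega
  refine ⟨b ∩ {x | x.2.1 ∈ S t}, inter_subset_left, S t, ht, fun x hx => hx.2,
    frequently_atTop.2 fun N => ⟨u (2 * N + t + 1), ?_, ?_⟩⟩
  · have := hm.le_apply (x := 2 * N + t + 1); omega
  · have e := hφ2 (u (2 * N + t))
    rw [← hu] at e
    have e2 : cnt b (u (2 * N + t + 1)) ≤ cnt (b ∩ {x | x.2.1 ∈ S t}) (u (2 * N + t + 1))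
        + (low (u (2 * N + t))).encard := by
      refine le_trans (encard_le_encard ?_) (encard_union_le _ _)
      intro x hx
      by_cases hx' : x ∈ low (u (2 * N + t))
      · exact Or.inr hx'
      · exact Or.inl ⟨⟨hx.1, mem_iUnion.2 ⟨N, not_lt.1 hx', hx.2⟩⟩, hx.2⟩
    exact (ENat.add_le_add_iff_right (low_finite _).encard_lt_top.ne).1 (e.trans e2)

end Vale.Agent.P068
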