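import Vale.Agent.P068.Unif
import Vale.Agent.P068.Defs

namespace Vale.Agent.P068

open Filter Set
open scoped Matroid

variable {V β : Type} (e : V × Ed ≃ β)

lemma Ind.insert {x : Set Ed} (h : Ind x) (h' : ¬ Ind xᶜ) (a : Ed) : Ind (insert a x) := by
  by_contra hc
  obtain ⟨c, c1, c2, c3, c4⟩ := ind_ivp (subset_insert a x) h ((ind_total _).resolve_left hc)
  by_cases ha : a ∈ c
  · exact hc (c3.mono (insert_subset ha c1))
  · exact h' (c4.mono (compl_subset_compl.2 ((subset_insert_iff_of_notMem ha).1 c2)))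

/-- The trace of a set at a vertex. -/
def sec (X : Set β) (v : V) : Set Ed := {a | e (v, a) ∈ X}

lemma sec_mono {X Y : Set β} (h : X ⊆ Y) (v : V) : sec e X v ⊆ sec e Y v := fun _ ha => h ha

lemma subset_of_sec {X Y : Set β} (h : ∀ v, sec e X v ⊆ sec e Y v) : X ⊆ Y := by
  intro y hy
  obtain ⟨⟨v, a⟩, rfl⟩ := e.surjective y
  exact h v hy

lemma ind_insert {X : Set β} {v : V} {a : Ed} (h : ∀ w, Ind (sec e X w))
    (h' : Ind (insert a (sec e X v))) (w : V) : Ind (sec e (insert (e (v, a)) X) w) := by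
  by_cases hw : w = v
  · subst hw
    refine h'.mono fun b hb => ?_
    simpa [sec] using hb
  · refine (h w).mono fun b hb => ?_
    simpa [sec, hw] using hb

lemma maximal_iff {B : Set β} : Maximal (fun X => ∀ v, Ind (sec e X v)) B ↔
    ∀ v, Ind (sec e B v) ∧ Ind (sec e B v)ᶜ := by
  constructor
  · intro h v
    refine ⟨h.1 v, ?_⟩
    by_contra hc
    apply hc
    have : sec e B v = univ := eq_univ_of_forall fun a =>
      h.2 (ind_insert e h.1 ((h.1 v).insert hc a)) (subset_insert _ _) (mem_insert _ _)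
    rw [this, compl_univ]; exact ind_empty
  · intro h
    exact ⟨fun v => (h v).1, fun X hX hBX => subset_of_sec e fun v =>
      (ind_anti (hX v) (h v).2 (sec_mono e hBX v)).ge⟩

/-- The direct sum of copies of the vertex matroid. -/
def pm : Matroid β := IndepMatroid.matroid
  { E := univ
    Indep := fun X => ∀ v, Ind (sec e X v)
    indep_empty := fun _ => ind_empty
    indep_subset := fun _ _ hJ hIJ v => (hJ v).mono (sec_mono e hIJ v)
    indep_aug := by
      intro I B hI hI' hB
      rw [maximal_iff] at hI' hB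
      obtain ⟨v, hv⟩ := not_forall.1 hI'
      have hv' : ¬ Ind (sec e I v)ᶜ := fun h => hv ⟨hI v, h⟩
      obtain ⟨a, ha, ha'⟩ := not_subset.1 fun h : sec e B v ⊆ sec e I v =>
        hv' ((hB v).2.mono (compl_subset_compl.2 h))
      exact ⟨e (v, a), ⟨ha, ha'⟩, ind_insert e hI ((hI v).insert hv' a)⟩
    indep_maximal := by
      intro X _ I hI hIX
      have : ∀ v, ∃ c, sec e I v ⊆ c ∧ c ⊆ sec e X v ∧ Ind c ∧ (Ind cᶜ ∨ c = sec e X v) := by
        intro v
        rcases ind_total (sec e X v) with h | h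
        · exact ⟨_, sec_mono e hIX v, subset_rfl, h, Or.inr rfl⟩
        · obtain ⟨c, c1, c2, c3, c4⟩ := ind_ivp (sec_mono e hIX v) (hI v) h
          exact ⟨c, c1, c2, c3, Or.inl c4⟩
      choose c c1 c2 c3 c4 using this
      have hs : ∀ v, sec e {y | (e.symm y).2 ∈ c (e.symm y).1} v = c v := by
        intro v; ext a; simp [sec]
      refine ⟨{y | (e.symm y).2 ∈ c (e.symm y).1}, subset_of_sec e fun v => hs v ▸ c1 v,
        ⟨fun v => hs v ▸ c3 v, subset_of_sec e fun v => hs v ▸ c2 v⟩,
        fun K hK hJK => subset_of_sec e fun v => ?_⟩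
      have h1 := sec_mono e hJK v
      rw [hs] at h1 ⊢
      rcases c4 v with h | h
      · exact (ind_anti (hK.1 v) h h1).ge
      · rw [h]; exact sec_mono e hK.2 v
    subset_ground := fun _ _ => subset_univ _ }

lemma pm_E : (pm e).E = univ := rfl

lemma pm_indep {X : Set β} : (pm e).Indep X ↔ ∀ v, Ind (sec e X v) := Iff.rfl

lemma pm_isBase {B : Set β} : (pm e).IsBase B ↔ ∀ v, Ind (sec e B v) ∧ Ind (sec e B v)ᶜ :=
  maximal_iff e

lemma pm_dual : (pm e)✶ = pm e := by
  refine Matroid.ext_isBase rfl fun B _ => ?_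
  rw [Matroid.dual_isBase_iff (subset_univ _), pm_E, pm_isBase, pm_isBase, ← compl_eq_univ_sdiff]
  refine forall_congr' fun v => ?_
  rw [show sec e Bᶜ v = (sec e B v)ᶜ from rfl, compl_compl, and_comm]

lemma mem_closure {S : Set β} {v : V} {a : Ed} (h : e (v, a) ∈ (pm e).closure S)
    (h' : e (v, a) ∉ S) : Ind (sec e S v)ᶜ := by
  obtain ⟨I, hI⟩ := (pm e).exists_isBasis' S
  rw [← hI.closure_eq_closure, hI.indep.mem_closure_iff'] at h
  by_contra hc
  refine h' (hI.subset (h.2 (ind_insert e hI.indep ((hI.indep v).insert (fun h => hc ?_) a))))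
  exact h.mono (compl_subset_compl.2 (sec_mono e hI.subset v))

lemma mem_closure_of {S : Set β} {v : V} (h : Ind (sec e S v)ᶜ) (a : Ed) :
    e (v, a) ∈ (pm e).closure S := by
  obtain ⟨c, -, c2, c3, c4⟩ := ind_ivp (empty_subset _) ind_empty h
  have hs : ∀ w, sec e ((fun b => e (v, b)) '' c) w ⊆ c := by
    rintro w b ⟨b', hb', h⟩
    rwa [← (Prod.mk.inj (e.injective h)).2]
  have hI : (pm e).Indep ((fun b => e (v, b)) '' c) := fun w => c3.mono (hs w)
  refine (pm e).closure_subset_closure (show (fun b => e (v, b)) '' c ⊆ S by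
    rintro _ ⟨b, hb, rfl⟩; exact c2 hb) ?_
  rw [hI.mem_closure_iff']
  refine ⟨trivial, fun h => ⟨a, ?_, rfl⟩⟩
  rw [ind_anti (h v) c4 fun b hb => Or.inr ⟨b, hb, rfl⟩]
  exact Or.inl rfl

lemma pm_partitional : IsPartitional (pm e) := by
  refine ⟨V, fun y => (e.symm y).1, fun X _ => ⟨fun h v => h.subset inter_subset_left,
    fun h v => (h v v).mono fun a ha => ⟨ha, by simp⟩⟩, fun v X hX => ?_⟩
  rw [Matroid.restrict_ground_eq] at hX
  rcases ind_total (sec e X v) with h | h
  · refine Or.inl ⟨fun w => ?_, hX⟩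
    by_cases hw : w = v
    · rwa [hw]
    · exact ind_empty.mono fun a ha => hw (by simpa using (hX ha).2)
  · right
    rw [Matroid.restrict_spanning_iff hX (subset_univ _)]
    intro y hy
    obtain ⟨⟨w, a⟩, rfl⟩ := e.surjective y
    obtain rfl : w = v := by simpa using hy.2
    exact mem_closure_of e h a

end Vale.Agent.P068
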