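import Mathlib

namespace Vale.Agent.P068

open Filter Set Cardinal

/-- Level `n` of the point set. -/
abbrev Om (n : ℕ) := (Fin n → Bool) → Bool

/-- The countable point set. -/
abbrev Pt := Σ n : ℕ, Om n

open Classical in
/-- The trace of a set on a level. -/
noncomputable def lev (X : Set Pt) (n : ℕ) : Finset (Om n) :=
  Finset.univ.filter fun ω => (⟨n, ω⟩ : Pt) ∈ X

@[simp] lemma mem_lev {X : Set Pt} {n : ℕ} {ω : Om n} : ω ∈ lev X n ↔ (⟨n, ω⟩ : Pt) ∈ X := by
  simp [lev]

/-- Sets of density zero along a fixed ultrafilter. -/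
def Null (X : Set Pt) : Prop :=
  ∀ k : ℕ, ∀ᶠ n in (hyperfilter ℕ : Filter ℕ), k * (lev X n).card ≤ Fintype.card (Om n)

lemma Null.mono {X Y : Set Pt} (h : Null Y) (hXY : X ⊆ Y) : Null X := fun k =>
  (h k).mono fun n hn => le_trans (Nat.mul_le_mul_left _ (Finset.card_le_card fun ω hω => by
    simpa using hXY (by simpa using hω))) hn

lemma lev_union_le (X Y : Set Pt) (n : ℕ) :
    (lev (X ∪ Y) n).card ≤ (lev X n).card + (lev Y n).card := by
  classical
  refine le_trans (Finset.card_le_card ?_) (Finset.card_union_le _ _)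
  intro ω; simp

lemma Null.union {X Y : Set Pt} (hX : Null X) (hY : Null Y) : Null (X ∪ Y) := fun k => by
  filter_upwards [hX (2 * k), hY (2 * k)] with n h1 h2
  have := Nat.mul_le_mul_left k (lev_union_le X Y n)
  nlinarith

lemma null_of_levels {X : Set Pt} {S : Set ℕ} (hS : S ∉ hyperfilter ℕ) (h : ∀ x ∈ X, x.1 ∈ S) :
    Null X := fun k => by
  filter_upwards [Ultrafilter.compl_mem_iff_notMem.2 hS] with n hn
  have : lev X n = ∅ := by
    ext ω; simpa using fun hω => hn (h _ hω)
  simp [this]

lemma null_of_finite {X : Set Pt} (hX : X.Finite) : Null X :=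
  null_of_levels (S := (fun x : Pt => x.1) '' X) (hX.image _).notMem_hyperfilter
    fun x hx => ⟨x, hx, rfl⟩

lemma null_empty : Null ∅ := null_of_finite finite_empty

lemma not_null_univ : ¬ Null univ := fun h => by
  obtain ⟨n, hn⟩ := (h 2).exists
  have : lev univ n = Finset.univ := by ext; simp
  rw [this, Finset.card_univ] at hn
  have : 0 < Fintype.card (Om n) := Fintype.card_pos
  omega

lemma null_biUnion {ι : Type*} (T : Finset ι) (f : ι → Set Pt) (h : ∀ i ∈ T, Null (f i)) :
    Null (⋃ i ∈ T, f i) := by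
  classical
  induction T using Finset.induction_on with
  | empty => simpa using null_empty
  | insert a T ha ih =>
    rw [Finset.set_biUnion_insert]
    exact (h a (by simp)).union (ih fun i hi => h i (by simp [hi]))

/-- The filter of sets with null complement. -/
def conull : Filter Pt where
  sets := {X | Null Xᶜ}
  univ_sets := by simpa using null_empty
  sets_of_superset h hXY := Null.mono h (compl_subset_compl.2 hXY)
  inter_sets h1 h2 := by
    simp only [mem_ofPred_eq, compl_inter]; exact Null.union h1 h2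

lemma conull_neBot : conull.NeBot := ⟨fun h => by
  have : (∅ : Set Pt) ∈ conull := by rw [h]; trivial
  exact not_null_univ (by simpa [conull] using this)⟩

/-- An ultrafilter containing no null set. -/
noncomputable def UF : Ultrafilter Pt := @Ultrafilter.of _ conull conull_neBot

lemma Null.notMem {X : Set Pt} (h : Null X) : X ∉ UF := by
  rw [← Ultrafilter.compl_mem_iff_notMem]
  exact @Ultrafilter.of_le _ conull conull_neBot _ (by simpa [conull] using h)

lemma card_cube {P ι : Type*} [Fintype P] [DecidableEq P] (T : Finset ι) (g : ι → P)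
    (hg : InjOn g T) (A : Finset (P → Bool)) (τ : ι → Bool)
    (hA : ∀ ω ∈ A, ∀ r ∈ T, ω (g r) = τ r) : 2 ^ T.card * A.card ≤ Fintype.card (P → Bool) := by
  rcases A.eq_empty_or_nonempty with rfl | ⟨ω0, h0⟩
  · simp
  have hsub : A ⊆ Fintype.piFinset fun p => if p ∈ T.image g then {ω0 p} else Finset.univ := by
    intro ω hω
    rw [Fintype.mem_piFinset]
    intro p
    split_ifs with hp
    · obtain ⟨r, hr, rfl⟩ := Finset.mem_image.1 hp
      simp [hA ω hω r hr, hA ω0 h0 r hr]
    · simp
  have h1 := Finset.card_le_card hsub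
  rw [Fintype.card_piFinset] at h1
  simp only [apply_ite Finset.card, Finset.card_singleton, Finset.card_univ, Fintype.card_bool,
    Finset.prod_ite, Finset.prod_const, one_pow, one_mul] at h1
  have h2 := Finset.card_filter_add_card_filter_not (s := Finset.univ) fun p => p ∈ T.image g
  have h3 : (Finset.univ.filter fun p => p ∈ T.image g).card = T.card := by
    rw [← Finset.card_image_of_injOn hg]; congr 1; ext; simp
  rw [Fintype.card_fun, Fintype.card_bool, ← Finset.card_univ, ← h2, h3, pow_add]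
  exact Nat.mul_le_mul_left _ h1

/-- The generic halves. -/
def half (r : ℕ → Bool) (σ : Bool) : Set Pt := {x | x.2 (fun i => r i) = σ}

lemma bad_finite {X : Set Pt} (hX : ¬ Null X) : {r | ∃ σ, Null (X ∩ half r σ)}.Finite := by
  classical
  by_contra hinf
  obtain ⟨k, hk⟩ := not_forall.1 hX
  rw [← Ultrafilter.eventually_not] at hk
  obtain ⟨T, hT, hc⟩ := Set.Infinite.exists_subset_card_eq hinf (k + 1)
  choose! σ hσ using fun r (hr : r ∈ T) => hT hr
  have hZ := null_biUnion T (fun r => X ∩ half r (σ r)) hσ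
  have hinj : ∀ᶠ n in (hyperfilter ℕ : Filter ℕ),
      InjOn (fun (r : ℕ → Bool) (i : Fin n) => r i) T := by
    apply Nat.hyperfilter_le_atTop
    have : ∀ᶠ n in atTop, ∀ r ∈ T, ∀ s ∈ T, (fun i : Fin n => r i) = (fun i : Fin n => s i) →
        r = s := by
      simp only [eventually_all_finset]
      intro r _ s _
      by_cases hrs : r = s
      · exact Eventually.of_forall fun _ _ => hrs
      · obtain ⟨j, hj⟩ := Function.ne_iff.1 hrs
        filter_upwards [eventually_gt_atTop j] with n hn h
        exact absurd (congrFun h ⟨j, hn⟩) hj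
    exact this.mono fun n hn r hr s hs h => hn r hr s hs h
  obtain ⟨n, h1, h2, h3⟩ := (hk.and ((hZ (2 * k)).and hinj)).exists
  set Y : Set Pt := {x | ∀ r ∈ T, x.2 (fun i => r i) = !σ r}
  have h4 := card_cube T _ h3 (lev Y n) (fun r => !σ r) (fun ω hω => by simpa [Y] using hω)
  have h5 : (lev X n).card ≤ (lev ((⋃ r ∈ T, X ∩ half r (σ r)) ∪ Y) n).card := by
    refine Finset.card_le_card fun ω hω => ?_
    rw [mem_lev] at hω ⊢
    by_cases h : (⟨n, ω⟩ : Pt) ∈ Y
    · exact Or.inr h
    · left
      simp only [Y, mem_ofPred_eq, not_forall] at h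
      obtain ⟨r, hr, h⟩ := h
      exact mem_biUnion hr ⟨hω, by simpa [half] using h⟩
  have h6 := lev_union_le (⋃ r ∈ T, X ∩ half r (σ r)) Y n
  have h7 : 2 * k ≤ 2 ^ T.card := by
    rw [hc, pow_succ]; have := @Nat.lt_two_pow_self k; omega
  have h8 := Nat.mul_le_mul_right (lev Y n).card h7
  have h9 := Nat.mul_le_mul_left (2 * k) (h5.trans h6)
  apply h1
  nlinarith

/-- `y` splits `p` unless `p` is null. -/
def Split (y p : Set Pt) : Prop := (Null (p ∩ y) → Null p) ∧ (Null (p \ y) → Null p)

lemma Split.compl {y p : Set Pt} (h : Split y p) : Split yᶜ p :=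
  ⟨fun h' => h.2 h', fun h' => h.1 (by simpa using h')⟩

lemma exists_split {κ : Type} (p : κ → Set Pt) (hκ : #κ < 𝔠) :
    ∃ y, y ∉ UF ∧ ∀ i, Split y (p i) := by
  suffices ∃ y, ∀ i, Split y (p i) by
    obtain ⟨y, hy⟩ := this
    by_cases h : y ∈ UF
    · exact ⟨yᶜ, Ultrafilter.compl_notMem_iff.2 h, fun i => (hy i).compl⟩
    · exact ⟨y, h, hy⟩
  let B : κ → Set (ℕ → Bool) := fun i => {r | ¬ Null (p i) ∧ ∃ σ, Null (p i ∩ half r σ)}
  have hB : ∀ i, (B i).Finite := by
    intro i
    by_cases h : Null (p i)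
    · simp [B, h]
    · exact (bad_finite h).subset fun r hr => hr.2
  have h1 : #(⋃ i, B i) < 𝔠 := by
    refine (mk_iUnion_le_sum_mk).trans_lt ?_
    refine (sum_le_sum _ (fun _ => ℵ₀) fun i => (hB i).lt_aleph0.le).trans_lt ?_
    rw [sum_const']
    exact mul_lt_of_lt aleph0_le_continuum hκ aleph0_lt_continuum
  have h2 : (⋃ i, B i) ≠ Set.univ := by
    intro h
    rw [h, mk_univ] at h1
    simp at h1
  obtain ⟨r, hr⟩ := (ne_univ_iff_exists_notMem _).1 h2
  refine ⟨half r true, fun i => ⟨fun h => ?_, fun h => ?_⟩⟩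
  · by_contra h'
    exact hr (mem_iUnion.2 ⟨i, h', true, h⟩)
  · by_contra h'
    refine hr (mem_iUnion.2 ⟨i, h', false, h.mono fun x hx => ⟨hx.1, ?_⟩⟩)
    simpa [half] using hx.2

end Vale.Agent.P068
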