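import Vale.Agent.P068.Lim

namespace Vale.Agent.P068

open Filter Set Cardinal

lemma exists_rec {ι β : Type*} [Preorder ι] [WellFoundedLT ι]
    (P : (η : ι) → (Iio η → β) → β → Prop) (h : ∀ η prev, ∃ g, P η prev g) :
    ∃ g : ι → β, ∀ η, P η (fun ζ => g ζ) (g η) := by
  let F : (η : ι) → ((ζ : ι) → ζ < η → β) → β := fun η prev =>
    Classical.choose (h η fun ζ => prev ζ ζ.2)
  refine ⟨wellFounded_lt.fix F, fun η => ?_⟩
  rw [WellFounded.fix_eq]
  exact Classical.choose_spec (h η fun ζ => wellFounded_lt.fix F ζ)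

/-- The inner (`false`) or outer (`true`) part of a set of edges. -/
def part (s : Bool) (B : Set Ed) : Set Pt := {p | (s, p) ∈ B}

@[simp] lemma mem_part {s : Bool} {B : Set Ed} {p : Pt} : p ∈ part s B ↔ (s, p) ∈ B := Iff.rfl

lemma part_mono (s : Bool) {B C : Set Ed} (h : B ⊆ C) : part s B ⊆ part s C := fun _ hp => h hp

@[simp] lemma part_compl (s : Bool) (B : Set Ed) : part s Bᶜ = (part s B)ᶜ := rfl

/-- Inclusion up to a null set. -/
def Sub (x y : Set Ed) : Prop := ∀ s, Null (part s x \ part s y)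

lemma Sub.of_subset {x y : Set Ed} (h : x ⊆ y) : Sub x y := fun _ =>
  null_empty.mono fun _ hp => hp.2 (h hp.1)

lemma Sub.trans {x y z : Set Ed} (h : Sub x y) (h' : Sub y z) : Sub x z := fun s =>
  ((h s).union (h' s)).mono fun p hp => by
    by_cases hy : p ∈ part s y
    · exact Or.inr ⟨hy, hp.2⟩
    · exact Or.inl ⟨hp.1, hy⟩

lemma Sub.of_finite {x y : Set Ed} (h : (x \ y).Finite) : Sub x y := fun s =>
  null_of_finite (h.preimage (f := fun p : Pt => ((s, p) : Ed)) fun _ _ _ _ e => (Prod.mk.inj e).2)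

lemma Sub.mem {x y : Set Ed} (h : Sub x y) {s : Bool} (hx : part s x ∈ UF) : part s y ∈ UF := by
  have := (Ultrafilter.compl_mem_iff_notMem.2 (h s).notMem)
  filter_upwards [hx, this] with p h1 h2
  by_contra h3; exact h2 ⟨h1, h3⟩

/-- The index set of the recursion. -/
abbrev Ix := (𝔠 : Cardinal.{0}).ord.ToType

lemma exists_req : ∃ f : Ix → Set Ed × Set Ed, Function.Surjective f := by
  have h1 : #(Set Ed) ≤ 𝔠 := by
    rw [mk_set, ← two_power_aleph0]
    exact power_le_power_left two_ne_zero mk_le_aleph0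
  have h2 : #(Set Ed × Set Ed) ≤ #Ix := by
    rw [mk_ord_toType, mk_prod, lift_id, ← continuum_mul_self]
    exact mul_le_mul' h1 h1
  obtain ⟨e⟩ := (Cardinal.le_def _ _).1 h2
  exact ⟨Function.invFun e, Function.invFun_surjective e.injective⟩

/-- The enumeration of all pairs of sets of edges. -/
noncomputable def req : Ix → Set Ed × Set Ed := Classical.choose exists_req

/-- The lower set of a requirement. -/
noncomputable def aa (η : Ix) : Set Ed := (req η).1

/-- The upper set of a requirement. -/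
noncomputable def bb (η : Ix) : Set Ed := (req η).2

lemma exists_ab (a b : Set Ed) : ∃ η, aa η = a ∧ bb η = b := by
  obtain ⟨η, h⟩ := Classical.choose_spec exists_req (a, b)
  exact ⟨η, congrArg Prod.fst h, congrArg Prod.snd h⟩

/-- The sets considered up to a stage. -/
def OldF (η : Ix) (prev : Iio η → Set Ed) : Set (Set Ed) :=
  (aa '' Iic η ∪ bb '' Iic η) ∪ range fun ζ : Iio η => aa ζ ∪ (bb ζ ∩ prev ζ)

/-- The genericity specification. -/
def Spec (η : Ix) (prev : Iio η → Set Ed) (g : Set Ed) : Prop :=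
  part false g ∉ UF ∧ part true g ∈ UF ∧
    (∀ x ∈ OldF η prev, ∀ x' ∈ OldF η prev, ∀ s s' t, Split (part t g) (part s x ∩ part s' x') ∧
      Split (part t g) (part s x \ part s' x')) ∧
    Split (part true g) (part false (bb η) ∩ part true (bb η) ∩ part false g)

lemma exists_spec (η : Ix) (prev : Iio η → Set Ed) : ∃ g, Spec η prev g := by
  have hc := aleph0_le_continuum.{0}
  have h0 : #(Iio η) < 𝔠 := by simpa using mk_Iio_lt η (by simp)
  have hf : ∀ (α : Type) [Finite α], #α < 𝔠 := fun α _ =>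
    (lt_aleph0_of_finite α).trans aleph0_lt_continuum
  have h1 : #(Iic η) < 𝔠 := by
    rw [← Iio_union_right]
    exact (mk_union_le _ _).trans_lt (add_lt_of_lt hc h0 (hf _))
  have h2 : #(OldF η prev) < 𝔠 :=
    (mk_union_le _ _).trans_lt (add_lt_of_lt hc ((mk_union_le _ _).trans_lt
      (add_lt_of_lt hc (mk_image_le.trans_lt h1) (mk_image_le.trans_lt h1)))
      (mk_range_le.trans_lt h0))
  let κ := (OldF η prev × OldF η prev) × (Bool × Bool × Bool)
  have h3 : #κ < 𝔠 := by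
    simp only [κ]
    rw [mk_prod, mk_prod (OldF η prev), lift_id, lift_id, lift_id]
    exact mul_lt_of_lt hc (mul_lt_of_lt hc h2 h2) (hf _)
  let p : κ → Set Pt := fun k => if k.2.2.2 then part k.2.1 k.1.1 ∩ part k.2.2.1 k.1.2
    else part k.2.1 k.1.1 \ part k.2.2.1 k.1.2
  obtain ⟨y, hy, hy'⟩ := exists_split p h3
  obtain ⟨z, hz, hz'⟩ := exists_split
    (fun k : Option κ => k.elim (part false (bb η) ∩ part true (bb η) ∩ y) p)
    (by rw [mk_option]; exact add_lt_of_lt hc h3 (one_lt_aleph0.trans aleph0_lt_continuum))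
  let g : Set Ed := {x | if x.1 then x.2 ∉ z else x.2 ∈ y}
  have e0 : part false g = y := by ext; simp [g]
  have e1 : part true g = zᶜ := by ext; simp [g]
  refine ⟨g, by rwa [e0], by rw [e1]; exact Ultrafilter.compl_mem_iff_notMem.2 hz, ?_, ?_⟩
  · intro x hx x' hx' s s' t
    cases t
    · rw [e0]
      exact ⟨hy' ((⟨x, hx⟩, ⟨x', hx'⟩), s, s', true), hy' ((⟨x, hx⟩, ⟨x', hx'⟩), s, s', false)⟩
    · rw [e1]
      exact ⟨(hz' (some ((⟨x, hx⟩, ⟨x', hx'⟩), s, s', true))).compl,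
        (hz' (some ((⟨x, hx⟩, ⟨x', hx'⟩), s, s', false))).compl⟩
  · rw [e0, e1]; exact (hz' none).compl

/-- The generic sets. -/
noncomputable def gg : Ix → Set Ed := Classical.choose (exists_rec Spec exists_spec)

lemma gg_spec (η : Ix) : Spec η (fun ζ => gg ζ) (gg η) :=
  Classical.choose_spec (exists_rec Spec exists_spec) η

/-- The generic set between the two sets of a requirement. -/
noncomputable def cc (η : Ix) : Set Ed := aa η ∪ (bb η ∩ gg η)

/-- The sets considered up to a stage. -/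
def Old (η : Ix) (x : Set Ed) : Prop := x ∈ OldF η fun ζ => gg ζ

lemma old_aa {ζ η : Ix} (h : ζ ≤ η) : Old η (aa ζ) := Or.inl (Or.inl ⟨ζ, h, rfl⟩)
lemma old_bb {ζ η : Ix} (h : ζ ≤ η) : Old η (bb ζ) := Or.inl (Or.inr ⟨ζ, h, rfl⟩)
lemma old_cc {ζ η : Ix} (h : ζ < η) : Old η (cc ζ) := Or.inr ⟨⟨ζ, h⟩, rfl⟩

lemma sub_bb {η : Ix} {x : Set Ed} (hx : Old η x) (h : Sub (cc η) x) : Sub (bb η) x := fun s =>
  ((gg_spec η).2.2.1 _ (old_bb le_rfl) _ hx s s s).2.1
    ((h s).mono fun _ hp => ⟨Or.inr ⟨hp.1.1, hp.2⟩, hp.1.2⟩)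

lemma sub_aa {η : Ix} {x : Set Ed} (hx : Old η x) (h : Sub x (cc η)) : Sub x (aa η) := fun s =>
  ((gg_spec η).2.2.1 _ hx _ (old_aa le_rfl) s s s).2.2
    ((h s).mono fun _ hp => ⟨hp.1.1, fun h' => h'.elim hp.1.2 fun h'' => hp.2 h''.2⟩)

/-- The requirements that are treated. -/
def Act (η : Ix) : Prop := aa η ⊆ bb η ∧ part false (aa η) ∉ UF ∧ part true (bb η) ∈ UF

lemma Act.inn {η : Ix} (h : Act η) : part false (cc η) ∉ UF := fun h' => by
  have : part false (aa η) ∪ part false (gg η) ∈ UF :=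
    mem_of_superset h' fun p hp => hp.imp id fun h => h.2
  exact (Ultrafilter.union_mem_iff.1 this).elim h.2.1 (gg_spec η).1

lemma Act.out {η : Ix} (h : Act η) : part true (cc η) ∈ UF :=
  mem_of_superset (inter_mem h.2.2 (gg_spec η).2.1) fun _ hp => Or.inr hp

lemma Act.cc_subset {η : Ix} (h : Act η) : cc η ⊆ bb η := union_subset h.1 inter_subset_left

open Classical in
/-- The default threshold. -/
noncomputable def base (x : Set Ed) : ℕ → ℕ∞ :=
  if part false x ∈ UF ∧ part true x ∈ UF then ⊥ else ⊤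

lemma base_anti {x y : Set Ed} (h : Sub x y) : base y ≤ base x := by
  unfold base
  by_cases hx : part false x ∈ UF ∧ part true x ∈ UF
  · rw [if_pos ⟨h.mem hx.1, h.mem hx.2⟩]; exact bot_le
  · rw [if_neg hx]; exact le_top

/-- The threshold at a stage. -/
noncomputable def HP (η : Ix) (prev : Iio η → ℕ → ℕ∞) (x : Set Ed) : ℕ → ℕ∞ :=
  base x ⊓ ⨅ ζ : Iio η, ⨅ _ : Sub (cc ζ) x, prev ζ

open Classical in
lemma exists_FF : ∃ F : Ix → ℕ → ℕ∞, ∀ η, F η = if Act η then
    HP η (fun ζ => F ζ) (bb η) ⊔ (cnt (cc η) ⊓ HP η (fun ζ => F ζ) (aa η)) else ⊤ :=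
  exists_rec (fun η prev F => F = if Act η then
    HP η prev (bb η) ⊔ (cnt (cc η) ⊓ HP η prev (aa η)) else ⊤) fun _ _ => ⟨_, rfl⟩

/-- The thresholds chosen at the stages. -/
noncomputable def FF : Ix → ℕ → ℕ∞ := Classical.choose exists_FF

/-- The threshold at a stage. -/
noncomputable def HS (η : Ix) (x : Set Ed) : ℕ → ℕ∞ := HP η (fun ζ => FF ζ) x

/-- The final threshold. -/
noncomputable def HH (x : Set Ed) : ℕ → ℕ∞ := base x ⊓ ⨅ ζ : Ix, ⨅ _ : Sub (cc ζ) x, FF ζ

lemma FF_act {η : Ix} (h : Act η) : FF η = HS η (bb η) ⊔ (cnt (cc η) ⊓ HS η (aa η)) :=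
  (Classical.choose_spec exists_FF η).trans (if_pos h)

lemma FF_not_act {η : Ix} (h : ¬ Act η) : FF η = ⊤ :=
  (Classical.choose_spec exists_FF η).trans (if_neg h)

lemma le_HS {η : Ix} {x : Set Ed} {G : ℕ → ℕ∞} :
    G ≤ HS η x ↔ G ≤ base x ∧ ∀ ζ < η, Sub (cc ζ) x → G ≤ FF ζ := by
  simp [HS, HP]

lemma le_HH {x : Set Ed} {G : ℕ → ℕ∞} :
    G ≤ HH x ↔ G ≤ base x ∧ ∀ ζ, Sub (cc ζ) x → G ≤ FF ζ := by
  simp [HH]

lemma HS_anti (η : Ix) {x y : Set Ed} (h : Sub x y) : HS η y ≤ HS η x :=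
  le_HS.2 ⟨(le_HS.1 le_rfl).1.trans (base_anti h), fun ζ hζ h' =>
    (le_HS.1 le_rfl).2 ζ hζ (h'.trans h)⟩

lemma HH_anti {x y : Set Ed} (h : Sub x y) : HH y ≤ HH x :=
  le_HH.2 ⟨(le_HH.1 le_rfl).1.trans (base_anti h), fun ζ h' =>
    (le_HH.1 le_rfl).2 ζ (h'.trans h)⟩

lemma HH_congr {x y : Set Ed} (h : Sub x y) (h' : Sub y x) : HH x = HH y :=
  le_antisymm (HH_anti h') (HH_anti h)

lemma stab {x : Set Ed} {G : ℕ → ℕ∞} (hb : G ≤ base x)
    (h : ∀ θ, Sub (cc θ) x → Old θ x ∨ G ≤ FF θ) : G ≤ HH x := by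
  refine le_HH.2 ⟨hb, fun θ => ?_⟩
  induction θ using WellFoundedLT.induction with
  | ind θ ih =>
    intro hθ
    rcases h θ hθ with ho | h'
    · by_cases ha : Act θ
      · rw [FF_act ha]
        exact le_sup_of_le_left ((le_HS.2 ⟨hb, ih⟩).trans (HS_anti θ (sub_bb ho hθ)))
      · rw [FF_not_act ha]; exact le_top
    · exact h'

lemma HH_eq_HS {η : Ix} {x : Set Ed} (h : ∀ θ, η ≤ θ → Old θ x) : HH x = HS η x := by
  refine le_antisymm (le_HS.2 ⟨(le_HH.1 le_rfl).1, fun ζ _ => (le_HH.1 le_rfl).2 ζ⟩) ?_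
  refine stab (le_HS.1 le_rfl).1 fun θ hθ => ?_
  rcases le_or_gt η θ with h' | h'
  · exact Or.inl (h θ h')
  · exact Or.inr ((le_HS.1 le_rfl).2 θ h' hθ)

lemma HH_cc {η : Ix} (h : Act η) : HH (cc η) = HH (bb η) ⊔ (cnt (cc η) ⊓ HH (aa η)) := by
  rw [HH_eq_HS fun θ hθ => old_aa hθ, HH_eq_HS fun θ hθ => old_bb hθ, ← FF_act h]
  refine le_antisymm ((le_HH.1 le_rfl).2 η (Sub.of_subset subset_rfl)) (stab ?_ fun θ hθ => ?_)
  · rw [base, if_neg fun h' => h.inn h'.1]; exact le_top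
  · rcases lt_trichotomy η θ with h' | rfl | h'
    · exact Or.inl (old_cc h')
    · exact Or.inr le_rfl
    · right
      have : FF η ≤ HS η (aa η) := by
        rw [FF_act h]
        exact sup_le (HS_anti η (Sub.of_subset h.1)) inf_le_right
      exact this.trans ((le_HS.1 le_rfl).2 θ h' (sub_aa (old_cc h') hθ))

lemma exists_of_HH_ne_top {x : Set Ed} (hx : part false x ∉ UF ∨ part true x ∉ UF)
    (h : HH x ≠ ⊤) : ∃ ζ, FF ζ ≠ ⊤ ∧ Sub (cc ζ) x := by
  by_contra hcon
  push Not at hcon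
  refine h (top_le_iff.1 (le_HH.2 ⟨?_, fun ζ hζ => ?_⟩))
  · rw [base, if_neg (by tauto)]
  · by_contra h'
    exact hcon ζ (fun e => h' e.ge) hζ

lemma act_of_ne_top {η : Ix} (h : FF η ≠ ⊤) : Act η := by
  by_contra h'; exact h (FF_not_act h')

/-- The root of a stage. -/
inductive Root : Ix → Ix → Prop
  | new (η : Ix) : part false (bb η) ∈ UF → Act η → Root η η
  | inh (η ζ θ : Ix) : ζ < η → Sub (cc ζ) (bb η) → Root ζ θ → Root η θ

lemma Root.le {η θ : Ix} (h : Root η θ) : θ ≤ η := by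
  induction h with
  | new _ _ _ => exact le_rfl
  | inh η ζ _ h _ _ ih => exact ih.trans h.le

lemma exists_root (η : Ix) : FF η ≠ ⊤ → ∃ θ, Root η θ := by
  induction η using WellFoundedLT.induction with
  | ind η ih =>
    intro h
    have ha := act_of_ne_top h
    by_cases hb : part false (bb η) ∈ UF
    · exact ⟨η, Root.new η hb ha⟩
    by_contra hcon
    apply h
    rw [FF_act ha, eq_top_iff]
    refine le_sup_of_le_left (le_HS.2 ⟨?_, fun ζ hζ hs => ?_⟩)
    · rw [base, if_neg (by tauto)]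
    · by_contra h'
      obtain ⟨θ, hθ⟩ := ih ζ hζ fun e => h' e.ge
      exact hcon ⟨θ, Root.inh η ζ θ hζ hs hθ⟩

lemma Root.out {η θ : Ix} (h : Root η θ) : part true (bb η) ∈ UF := by
  induction h with
  | new _ _ h => exact h.2.2
  | inh η ζ _ _ hs _ ih =>
    exact hs.mem (mem_of_superset (inter_mem ih (gg_spec ζ).2.1) fun _ hp => Or.inr hp)

lemma Root.out' {η θ : Ix} (h : Root η θ) : part true (cc η) ∈ UF :=
  mem_of_superset (inter_mem h.out (gg_spec η).2.1) fun _ hp => Or.inr hp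

lemma null_inter_of_sub {x x' y y' : Set Ed} (hx : Sub x x') (hy : Sub y y')
    (h : Null (part false x' ∩ part true y')) : Null (part false x ∩ part true y) :=
  (h.union ((hx false).union (hy true))).mono fun p hp => by
    simp only [mem_union, mem_inter_iff, Set.mem_sdiff] at hp ⊢; tauto

lemma root_lt (m : Ix) : ∀ η ξ θ θ', max η ξ = m → Root η θ → Root ξ θ' →
    Null (part false (cc η) ∩ part true (cc ξ)) → θ < θ' := by
  induction m using WellFoundedLT.induction with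
  | ind m ih =>
    intro η ξ θ θ' hm h1 h2 hn
    have rf : ∀ x : Set Ed, Sub x x := fun x => Sub.of_subset subset_rfl
    rcases lt_trichotomy η ξ with h | rfl | h
    · rw [max_eq_right h.le] at hm
      subst hm
      have hn' : Null (part false (cc η) ∩ part true (bb ξ)) :=
        ((gg_spec ξ).2.2.1 _ (old_cc h) _ (old_bb le_rfl) false true true).1.1
          (hn.mono fun _ hp => ⟨hp.1.1, Or.inr ⟨hp.1.2, hp.2⟩⟩)
      cases h2 with
      | new _ _ => exact h1.le.trans_lt h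
      | inh _ ζ _ hζ hs hr =>
        exact ih _ (max_lt h hζ) η ζ θ θ' rfl h1 hr (null_inter_of_sub (rf _) hs hn')
    · rw [max_self] at hm
      subst hm
      have hn' : Null (part false (bb η) ∩ part true (bb η)) :=
        ((gg_spec η).2.2.1 _ (old_bb le_rfl) _ (old_bb le_rfl) false true false).1.1
          ((gg_spec η).2.2.2.1 (hn.mono fun _ hp =>
            ⟨Or.inr ⟨hp.1.1.1, hp.1.2⟩, Or.inr ⟨hp.1.1.2, hp.2⟩⟩))
      by_cases hb : part false (bb η) ∈ UF
      · exact absurd (inter_mem hb h1.out) hn'.notMem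
      cases h1 with
      | new _ _ => contradiction
      | inh _ ζ _ hζ hs hr =>
        cases h2 with
        | new _ _ => contradiction
        | inh _ ζ' _ hζ' hs' hr' =>
          exact ih _ (max_lt hζ hζ') ζ ζ' θ θ' rfl hr hr' (null_inter_of_sub hs hs' hn')
    · rw [max_eq_left h.le] at hm
      subst hm
      have hn' : Null (part false (bb η) ∩ part true (cc ξ)) :=
        ((gg_spec η).2.2.1 _ (old_bb le_rfl) _ (old_cc h) false true false).1.1
          (hn.mono fun _ hp => ⟨Or.inr ⟨hp.1.1, hp.2⟩, hp.1.2⟩)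
      cases h1 with
      | new _ hb _ => exact absurd (inter_mem hb h2.out') hn'.notMem
      | inh _ ζ _ hζ hs hr =>
        exact ih _ (max_lt hζ h) ζ ξ θ θ' rfl hr h2 (null_inter_of_sub hs (rf _) hn')

end Vale.Agent.P068
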