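import Vale.Agent.P068.Rec

namespace Vale.Agent.P068

open Filter Set

lemma HH_top {x : Set Ed} (h : part true x ∉ UF) : HH x = ⊤ := by
  by_contra h'
  obtain ⟨ζ, h1, h2⟩ := exists_of_HH_ne_top (Or.inr h) h'
  exact h (h2.mem (act_of_ne_top h1).out)

lemma HH_bot {x : Set Ed} (h0 : part false x ∈ UF) (h1 : part true x ∈ UF) : HH x = ⊥ := by
  refine le_bot_iff.1 ((le_HH.1 le_rfl).1.trans ?_)
  rw [base, if_pos ⟨h0, h1⟩]

lemma leG_top (x : Set Ed) : LeG ⊤ x := Eventually.of_forall fun _ => le_top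

lemma geG_bot (x : Set Ed) : GeG ⊥ x := Frequently.of_forall fun _ => bot_le

lemma sub_union_of_levels {a Z : Set Ed} {S : Set ℕ} (hS : S ∉ hyperfilter ℕ)
    (h : ∀ x ∈ Z, x.2.1 ∈ S) : Sub (a ∪ Z) a := fun s =>
  null_of_levels hS fun p hp => h (s, p) (hp.1.resolve_left hp.2)

lemma ivp_window {a b : Set Ed} (hab : a ⊆ b) (ha : LeG (HH a) a)
    (h : ∀ k : ℕ, ∃ᶠ n in atTop, HH a n + k ≤ cnt b n) :
    ∃ c, a ⊆ c ∧ c ⊆ b ∧ LeG (HH c) c ∧ GeG (HH c) c := by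
  obtain ⟨Z, hZ, S, hS, h1, h2⟩ := window h
  obtain ⟨c, c1, c2, c3⟩ := ivp (subset_union_left (t := Z)) ha (h2.mono subset_union_right le_rfl)
  have : HH c = HH a := HH_congr ((Sub.of_subset c2).trans (sub_union_of_levels hS h1))
    (Sub.of_subset c1)
  exact ⟨c, c1, c2.trans (union_subset hab hZ), by rwa [this]⟩

lemma ivp_stat {a x b : Set Ed} (hax : a ⊆ x) (hxb : x ⊆ b) (k l : ℕ)
    (h1 : ∀ᶠ n in atTop, cnt x n ≤ HH x n + k) (h2 : ∃ᶠ n in atTop, HH x n ≤ cnt x n + l)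
    (ha : LeG (HH a) a) (hb : GeG (HH b) b) :
    ∃ c, a ⊆ c ∧ c ⊆ b ∧ LeG (HH c) c ∧ GeG (HH c) c := by
  obtain ⟨c, c1, c2, c3, c4, c5⟩ := ivp_near hax hxb k l h1 h2
    (fun h => by rwa [HH_congr (Sub.of_finite h) (Sub.of_subset hax)])
    (fun h => by rwa [HH_congr (Sub.of_subset hxb) (Sub.of_finite h)])
  exact ⟨c, c1, c2, by rwa [HH_congr (Sub.of_finite c4) (Sub.of_finite c3)]⟩

theorem ivp_main {a b : Set Ed} (hab : a ⊆ b) (h0 : part false a ∉ UF) (h1 : part true b ∈ UF)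
    (ha : LeG (HH a) a) (hb : GeG (HH b) b) :
    ∃ c, a ⊆ c ∧ c ⊆ b ∧ LeG (HH c) c ∧ GeG (HH c) c := by
  obtain ⟨η, rfl, rfl⟩ := exists_ab a b
  have hact : Act η := ⟨hab, h0, h1⟩
  have hc := HH_cc hact
  have hac : aa η ⊆ cc η := subset_union_left
  have hcb := hact.cc_subset
  by_cases hA : ∃ k : ℕ, ∀ᶠ n in atTop, cnt (cc η) n ≤ HH (aa η) n + k
  swap
  · push Not at hA
    obtain ⟨c, c1, c2, c3⟩ := ivp_window hac ha fun k => (hA k).mono fun n hn => hn.le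
    exact ⟨c, c1, c2.trans hcb, c3⟩
  obtain ⟨k, hk⟩ := hA
  by_cases hB : ∃ l : ℕ, ∃ᶠ n in atTop, HH (bb η) n ≤ cnt (cc η) n + l
  · obtain ⟨l, hl⟩ := hB
    refine ivp_stat hac hcb k l (hk.mono fun n hn => ?_) (hl.mono fun n hn => ?_) ha hb
    · rw [hc]
      simp only [Pi.sup_apply, Pi.inf_apply]
      rcases le_total (cnt (cc η) n) (HH (aa η) n) with h | h
      · rw [inf_eq_left.2 h]; exact le_sup_right.trans le_self_add
      · rw [inf_eq_right.2 h]; exact hn.trans (add_le_add_left le_sup_right _)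
    · rw [hc]
      exact sup_le hn (inf_le_left.trans le_self_add)
  push Not at hB
  by_cases hC : ∃ l : ℕ, ∀ᶠ n in atTop, cnt (bb η) n ≤ HH (bb η) n + l
  · obtain ⟨l, hl⟩ := hC
    exact ivp_stat hab subset_rfl l 0 hl (by simpa [GeG] using hb) ha hb
  push Not at hC
  have he : ∀ᶠ n in atTop, HH (cc η) n = HH (bb η) n ∧ cnt (cc η) n ≤ HH (bb η) n :=
    (hB 0).mono fun n hn => by
      have : cnt (cc η) n ≤ HH (bb η) n := le_self_add.trans hn.le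
      exact ⟨by rw [hc]; exact sup_eq_left.2 (inf_le_left.trans this), this⟩
  obtain ⟨c, c1, c2, c3⟩ := ivp_window hcb (he.mono fun n hn => hn.2.trans hn.1.ge)
    fun k => ((hC k).and_eventually he).mono fun n hn => by rw [hn.2.1]; exact hn.1.le
  exact ⟨c, hac.trans c1, c2, c3⟩

/-- The independent sets of the vertex matroid. -/
def Ind (x : Set Ed) : Prop :=
  (part false x ∉ UF ∧ LeG (HH x) x) ∨
    (part false x ∈ UF ∧ part true x ∉ UF ∧ GeG (HH xᶜ) xᶜ)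

lemma ind_compl {x : Set Ed} : Ind xᶜ ↔ (part false x ∈ UF ∧ LeG (HH xᶜ) xᶜ) ∨
    (part false x ∉ UF ∧ part true x ∈ UF ∧ GeG (HH x) x) := by
  simp [Ind, Ultrafilter.compl_mem_iff_notMem]

lemma Ind.mono {x y : Set Ed} (h : Ind y) (hxy : x ⊆ y) : Ind x := by
  rcases h with ⟨h1, h2⟩ | ⟨-, h2, h3⟩
  · exact Or.inl ⟨fun h => h1 (mem_of_superset h (part_mono _ hxy)),
      h2.mono hxy (HH_anti (Sub.of_subset hxy))⟩
  · have h4 : part true x ∉ UF := fun h => h2 (mem_of_superset h (part_mono _ hxy))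
    by_cases h : part false x ∈ UF
    · exact Or.inr ⟨h, h4, h3.mono (compl_subset_compl.2 hxy)
        (HH_anti (Sub.of_subset (compl_subset_compl.2 hxy)))⟩
    · exact Or.inl ⟨h, by rw [HH_top h4]; exact leG_top x⟩

lemma ind_empty : Ind ∅ := by
  have : ∀ s, part s ∅ ∉ UF := fun s => Ultrafilter.empty_notMem
  exact Or.inl ⟨this _, by rw [HH_top (this _)]; exact leG_top _⟩

lemma ind_total' {x : Set Ed} (h : part false x ∉ UF) : Ind x ∨ Ind xᶜ := by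
  rcases leG_or_geG (HH x) x with h1 | h1
  · exact Or.inl (Or.inl ⟨h, h1⟩)
  · refine Or.inr (ind_compl.2 (Or.inr ⟨h, ?_, h1⟩))
    by_contra h2
    exact h1.ne_top (HH_top h2)

lemma ind_total (x : Set Ed) : Ind x ∨ Ind xᶜ := by
  by_cases h : part false x ∈ UF
  · have := ind_total' (x := xᶜ) (Ultrafilter.compl_notMem_iff.2 h)
    rw [compl_compl] at this; exact this.symm
  · exact ind_total' h

lemma ind_anti {x y : Set Ed} (hx : Ind x) (hy : Ind yᶜ) (h : y ⊆ x) : y = x := by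
  rcases hx with ⟨h1, h2⟩ | ⟨-, h2, h3⟩ <;> rcases ind_compl.1 hy with ⟨h4, h5⟩ | ⟨-, h5, h6⟩
  · exact absurd (mem_of_superset h4 (part_mono _ h)) h1
  · exact eq_of_leG_geG h2 h6 h (HH_anti (Sub.of_subset h))
  · exact compl_injective (eq_of_leG_geG h5 h3 (compl_subset_compl.2 h)
      (HH_anti (Sub.of_subset (compl_subset_compl.2 h)))).symm
  · exact absurd (mem_of_superset h5 (part_mono _ h)) h2

lemma not_leG_bot {x : Set Ed} (h : x.Nonempty) : ¬ LeG ⊥ x := fun h' =>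
  h.ne_empty (eq_of_leG_geG h' (geG_bot ∅) (empty_subset _) le_rfl).symm

lemma ind_ivp' {a b : Set Ed} (hab : a ⊆ b) (ha : Ind a) (hb : Ind bᶜ) (h0 : part false a ∉ UF)
    (h1 : part true b ∈ UF) : ∃ c, a ⊆ c ∧ c ⊆ b ∧ Ind c ∧ Ind cᶜ := by
  have ha' : LeG (HH a) a := ha.elim (fun h => h.2) fun h => absurd h.1 h0
  have hb' : GeG (HH b) b := by
    rcases ind_compl.1 hb with h | h
    · rw [HH_bot h.1 h1]; exact geG_bot b
    · exact h.2.2
  obtain ⟨c, c1, c2, c3, c4⟩ := ivp_main hab h0 h1 ha' hb'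
  have e1 : part true c ∈ UF := by
    by_contra h; exact c4.ne_top (HH_top h)
  have e0 : part false c ∉ UF := fun h => by
    obtain ⟨p, hp⟩ := Ultrafilter.nonempty_of_mem h
    rw [HH_bot h e1] at c3
    exact not_leG_bot ⟨_, hp⟩ c3
  exact ⟨c, c1, c2, Or.inl ⟨e0, c3⟩, ind_compl.2 (Or.inr ⟨e0, e1, c4⟩)⟩

lemma ind_ivp {a b : Set Ed} (hab : a ⊆ b) (ha : Ind a) (hb : Ind bᶜ) :
    ∃ c, a ⊆ c ∧ c ⊆ b ∧ Ind c ∧ Ind cᶜ := by
  by_cases h : part false a ∉ UF ∧ part true b ∈ UF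
  · exact ind_ivp' hab ha hb h.1 h.2
  have h' : part false b ∈ UF ∧ part true a ∉ UF := by
    by_cases h0 : part false a ∈ UF
    · exact ⟨mem_of_superset h0 (part_mono _ hab), ha.elim (fun h => absurd h0 h.1) fun h => h.2.1⟩
    · have h1 : part true b ∉ UF := fun h1 => h ⟨h0, h1⟩
      exact ⟨(ind_compl.1 hb).elim (fun h => h.1) fun h => absurd h.2.1 h1,
        fun h => h1 (mem_of_superset h (part_mono _ hab))⟩
  obtain ⟨c, c1, c2, c3, c4⟩ := ind_ivp' (compl_subset_compl.2 hab) hb (by rwa [compl_compl])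
    (Ultrafilter.compl_notMem_iff.2 h'.1) (Ultrafilter.compl_mem_iff_notMem.2 h'.2)
  exact ⟨cᶜ, subset_compl_comm.1 c2, compl_subset_comm.1 c1, c4, by rwa [compl_compl]⟩

/-- The rank relation. -/
def Rk (x : Set Ed) (θ : Ix) : Prop := ∃ ζ, Root ζ θ ∧ Sub (cc ζ) x

lemma exists_rk {x : Set Ed} (hx : Ind xᶜ) (h : part false x ∉ UF) :
    part true x ∈ UF ∧ ∃ θ, Rk x θ := by
  obtain ⟨-, h1, h2⟩ := (ind_compl.1 hx).resolve_left fun h' => h h'.1
  obtain ⟨ζ, h3, h4⟩ := exists_of_HH_ne_top (Or.inl h) h2.ne_top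
  obtain ⟨θ, hθ⟩ := exists_root ζ h3
  exact ⟨h1, θ, ζ, hθ, h4⟩

lemma rk_lt {x y : Set Ed} {θ θ' : Ix} (hx : Rk x θ) (hy : Rk y θ')
    (h : Disjoint (part false x) (part true y)) : θ < θ' := by
  obtain ⟨ζ, h1, h2⟩ := hx
  obtain ⟨ξ, h3, h4⟩ := hy
  exact root_lt _ ζ ξ θ θ' rfl h1 h3
    (null_inter_of_sub h2 h4 (by rw [h.inter_eq]; exact null_empty))

end Vale.Agent.P068
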